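import Vale.Agent.P097.H315.Pick
import Vale.Agent.P097.H315.Marc

/-!
P097, case [c], row A5.PICK: step (8') = choice of the base on a vertical that leaves the zone, and
of the near maximiser, with the bad windows removed by the Marcinkiewicz integral.
-/

open MeasureTheory Set Filter Topology
open scoped ENNReal
open Vale.Agent.P097.H315

namespace Vale.Agent.P097.H418

/-- the penalty integral at the dyadic depth `2 ^ (-k)`. -/
noncomputable def bi (a : ℝ) (A B : Set ℝ) (u : ℝ) (k : ℕ) : ℝ≥0∞ :=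
  ∫⁻ x in B, ENNReal.ofReal (Metric.infDist x A *
    (((1 / 2 : ℝ) ^ k) ^ a / (max ((1 / 2 : ℝ) ^ k) (|x - u| / 2)) ^ (a + 2)))

theorem tsum_bi_le {A B : Set ℝ} {a u : ℝ} (ha : 0 < a) (hu : u ∈ A) :
    ∑' k : ℕ, bi a A B u k ≤ 4 * Marc.Ca a * Marc.Jm A B u :=
  Marc.beta_sum ha hu

theorem tsum_bi_ne {A B : Set ℝ} {a u : ℝ} (ha : 0 < a) (hu : u ∈ A)
    (hJ : Marc.Jm A B u ≠ ∞) : ∑' k : ℕ, bi a A B u k ≠ ∞ := by
  refine ne_top_of_le_ne_top ?_ (tsum_bi_le ha hu)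
  exact ENNReal.mul_ne_top (ENNReal.mul_ne_top (by norm_num) (Marc.Ca_lt ha).ne) hJ

/-- the tails of the penalty sum tend to zero. -/
theorem tail_small {A B : Set ℝ} {a u : ℝ} (ha : 0 < a) (hu : u ∈ A)
    (hJ : Marc.Jm A B u ≠ ∞) {e : ℝ≥0∞} (he : e ≠ 0) :
    ∃ M : ℕ, ∀ m ≥ M, ∑' k : ℕ, bi a A B u (k + m) ≤ e := by
  have h := ENNReal.tendsto_sum_nat_add (bi a A B u) (tsum_bi_ne ha hu hJ)
  have h2 := h.eventually (gt_mem_nhds (pos_iff_ne_zero.mpr he))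
  obtain ⟨M, hM⟩ := eventually_atTop.mp h2
  exact ⟨M, fun m hm => (hM m hm).le⟩

/-- intermediate depths. -/
theorem bi_between {A B : Set ℝ} {a u t : ℝ} (ha : 0 < a) {k : ℕ}
    (h1 : (1 / 2 : ℝ) ^ (k + 1) ≤ t) (h2 : t ≤ (1 / 2 : ℝ) ^ k) :
    ∫⁻ x in B, ENNReal.ofReal (Metric.infDist x A *
      (t ^ a / (max t (|x - u| / 2)) ^ (a + 2))) ≤
      ENNReal.ofReal (2 ^ (a + 2)) * bi a A B u k := by
  have ht : 0 < t := lt_of_lt_of_le (by positivity) h1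
  have hmeas : Measurable fun x : ℝ => ENNReal.ofReal (Metric.infDist x A *
        (((1 / 2 : ℝ) ^ k) ^ a / (max ((1 / 2 : ℝ) ^ k) (|x - u| / 2)) ^ (a + 2))) := by
    apply ENNReal.measurable_ofReal.comp
    apply (Metric.continuous_infDist_pt A).measurable.mul
    apply Measurable.div measurable_const
    fun_prop
  unfold bi
  rw [← lintegral_const_mul _ hmeas]
  apply lintegral_mono
  intro x
  dsimp only
  have hd := Metric.infDist_nonneg (x := x) (s := A)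
  rw [← ENNReal.ofReal_mul (by positivity)]
  apply ENNReal.ofReal_le_ofReal
  have hx := abs_nonneg (x - u)
  set s : ℝ := |x - u| / 2 with hs
  have hs0 : 0 ≤ s := by positivity
  have hr : 0 < (1 / 2 : ℝ) ^ k := by positivity
  set r : ℝ := (1 / 2 : ℝ) ^ k with hrdef
  have h1' : r / 2 ≤ t := by
    have : (1 / 2 : ℝ) ^ (k + 1) = r / 2 := by rw [pow_succ]; ring
    linarith
  have hm1 : 0 < max t s := lt_max_of_lt_left ht
  have hm2 : 0 < max r s := lt_max_of_lt_left hr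
  have hm : max r s ≤ 2 * max t s := by
    apply max_le
    · have := le_max_left t s; linarith
    · have := le_max_right t s; linarith
  have e1 : (max r s) ^ (a + 2) ≤ 2 ^ (a + 2) * (max t s) ^ (a + 2) := by
    rw [← Real.mul_rpow (by norm_num) hm1.le]
    exact Real.rpow_le_rpow hm2.le hm (by linarith)
  have e2 : t ^ a ≤ r ^ a := Real.rpow_le_rpow ht.le h2 ha.le
  have p1 : 0 < (max t s) ^ (a + 2) := Real.rpow_pos_of_pos hm1 _
  have p2 : 0 < (max r s) ^ (a + 2) := Real.rpow_pos_of_pos hm2 _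
  have p3 : 0 ≤ r ^ a := Real.rpow_nonneg hr.le a
  have e3 : t ^ a / (max t s) ^ (a + 2) ≤ 2 ^ (a + 2) * (r ^ a / (max r s) ^ (a + 2)) := by
    rw [mul_div_assoc', div_le_div_iff₀ p1 p2]
    calc t ^ a * (max r s) ^ (a + 2) ≤ r ^ a * (2 ^ (a + 2) * (max t s) ^ (a + 2)) :=
          mul_le_mul e2 e1 p2.le p3
      _ = _ := by ring
  calc Metric.infDist x A * (t ^ a / (max t s) ^ (a + 2))
      ≤ Metric.infDist x A * (2 ^ (a + 2) * (r ^ a / (max r s) ^ (a + 2))) :=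
        mul_le_mul_of_nonneg_left e3 hd
    _ = _ := by ring

/-- the bound of `e ^ (-Pen)` from depth `~ 2 ^ (-k)` to a bad window, as a real number. -/
noncomputable def be (a : ℝ) (A B : Set ℝ) (u η : ℝ) (k : ℕ) : ℝ :=
  (ENNReal.ofReal (2 / η * 2 ^ (a + 2)) * bi a A B u k).toReal

theorem bi_ne {A B : Set ℝ} {a u : ℝ} (ha : 0 < a) (hu : u ∈ A)
    (hJ : Marc.Jm A B u ≠ ∞) (k : ℕ) : bi a A B u k ≠ ∞ :=
  ne_top_of_le_ne_top (tsum_bi_ne ha hu hJ) (ENNReal.le_tsum k)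

variable {Z : Type*} (w : Pick.Win Z) (v : Z → ℝ)

/-- a bad window is far away in the sense of the penalty. -/
theorem W_bad (hv : ∀ z z', |v z - v z'| + w.ρ z + w.ρ z' ≤ w.D z z')
    {A B : Set ℝ} (hB : MeasurableSet B) {a u η : ℝ} (ha : 0 < a) (hu : u ∈ A) (hη : 0 < η)
    (hJ : 8 * Marc.Jm A B u ≤ ENNReal.ofReal η) {p z : Z} {k : ℕ}
    (h1 : (1 / 2 : ℝ) ^ (k + 1) ≤ w.ρ p) (h2 : w.ρ p ≤ (1 / 2 : ℝ) ^ k) (hp : v p = u)
    (hbad : ENNReal.ofReal η ≤ Marc.Mz A B (v z) (w.ρ z)) :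
    w.W a p z ≤ be a A B u η k := by
  have hJ' : Marc.Jm A B u ≠ ∞ := by
    intro h
    rw [h] at hJ
    have : (8 : ℝ≥0∞) * ∞ = ∞ := ENNReal.mul_top (by norm_num)
    rw [this, top_le_iff] at hJ
    exact ENNReal.ofReal_ne_top hJ
  have hD := hv p z
  rw [hp] at hD
  have h3 := Marc.bad_pen hB ha (w.pos z) (w.pos p) (by linarith : |u - v z| + w.ρ z + w.ρ p ≤ w.D p z)
    hη hJ hbad
  have h4 := h3.trans (mul_le_mul_right (bi_between (A := A) (B := B) (u := u) ha h1 h2) _)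
  have h5 : ENNReal.ofReal (2 / η) * (ENNReal.ofReal (2 ^ (a + 2)) * bi a A B u k) =
      ENNReal.ofReal (2 / η * 2 ^ (a + 2)) * bi a A B u k := by
    rw [← mul_assoc, ← ENNReal.ofReal_mul (by positivity)]
  rw [h5] at h4
  unfold be
  unfold Pick.Win.W
  exact (ENNReal.ofReal_le_iff_le_toReal
    (ENNReal.mul_ne_top ENNReal.ofReal_ne_top (bi_ne ha hu hJ' k))).mp h4

theorem be_eq {A B : Set ℝ} {a u η : ℝ} (hη : 0 < η) (k : ℕ) :
    be a A B u η k = 2 / η * 2 ^ (a + 2) * (bi a A B u k).toReal := by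
  unfold be
  rw [ENNReal.toReal_mul, ENNReal.toReal_ofReal (by positivity)]

theorem be_nonneg {A B : Set ℝ} {a u η : ℝ} (k : ℕ) : 0 ≤ be a A B u η k :=
  ENNReal.toReal_nonneg

/-- finite sums of the real penalties. -/
theorem sum_be_le {A B : Set ℝ} {a u η : ℝ} (ha : 0 < a) (hu : u ∈ A) (hη : 0 < η)
    (hJ : Marc.Jm A B u ≠ ∞) {m : ℕ} {e : ℝ} (he : 0 ≤ e)
    (htail : ∑' k : ℕ, bi a A B u (k + m) ≤ ENNReal.ofReal e) (n : ℕ) :
    ∑ j ∈ Finset.range n, be a A B u η (m + j) ≤ 2 / η * 2 ^ (a + 2) * e := by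
  simp_rw [be_eq hη]
  rw [← Finset.mul_sum]
  apply mul_le_mul_of_nonneg_left _ (by positivity)
  have h1 : ∀ j ∈ Finset.range n, bi a A B u (m + j) ≠ ∞ := fun j _ => bi_ne ha hu hJ _
  rw [← ENNReal.toReal_sum h1]
  have h2 : ∑ j ∈ Finset.range n, bi a A B u (m + j) ≤ ENNReal.ofReal e := by
    refine le_trans ?_ htail
    have : ∀ j, bi a A B u (m + j) = bi a A B u (j + m) := fun j => by rw [add_comm]
    simp_rw [this]
    exact ENNReal.sum_le_tsum _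
  exact ENNReal.toReal_le_of_le_ofReal he h2

/-- **(8')**: along a vertical over a label `u` with small Marcinkiewicz integral on which the line
moves by at least `ρ₀`, there is a base such that its near maximiser is a good window. -/
theorem pick_of_exit (hv : ∀ z z', |v z - v z'| + w.ρ z + w.ρ z' ≤ w.D z z')
    {A B : Set ℝ} (hB : MeasurableSet B) {a u η θ : ℝ} (ha : 0 < a) (hθ : 0 < θ) (hu : u ∈ A)
    (hη : 0 < η) (hJ : 8 * Marc.Jm A B u ≤ ENNReal.ofReal η)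
    {F : Type*} [NormedAddCommGroup F] [NormedSpace ℝ F]
    {E : Z → ℝ} (hE0 : ∀ z, 0 ≤ E z) (hE1 : ∀ z, E z ≤ 1) {ρ₀ : ℝ} (h0 : 0 < ρ₀) (h01 : ρ₀ ≤ 1)
    {m : ℕ} (htail : ∑' k : ℕ, bi a A B u (k + m) ≤ ENNReal.ofReal (η * ρ₀ / 2 ^ (2 * a + 8)))
    {p : ℝ → Z} {L : ℝ → F} {t₁ : ℝ} (ht : 0 < t₁) (ht' : t₁ ≤ (1 / 2 : ℝ) ^ m)
    (hp : ∀ t ∈ Icc t₁ ((1 / 2 : ℝ) ^ m), w.ρ (p t) = t ∧ v (p t) = u)
    (hL : ∀ t ∈ Icc t₁ ((1 / 2 : ℝ) ^ m), E (p t) < 1 → ∃ L' : F,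
      HasDerivWithinAt L L' (Icc t₁ ((1 / 2 : ℝ) ^ m)) t ∧ t * ‖L'‖ ≤ E (p t))
    (hex : ρ₀ ≤ ‖L t₁ - L ((1 / 2 : ℝ) ^ m)‖) :
    ∃ t ∈ Icc t₁ ((1 / 2 : ℝ) ^ m), ∃ z : Z, w.Near a E (p t) z ∧
      Marc.Mz A B (v z) (w.ρ z) < ENNReal.ofReal η ∧
      (1 - (1 / 2 : ℝ) ^ θ) / 4 * ρ₀ * (t * 2 ^ m) ^ θ ≤ E (p t) := by
  have hJ' : Marc.Jm A B u ≠ ∞ := by
    intro h
    rw [h, ENNReal.mul_top (by norm_num), top_le_iff] at hJ
    exact ENNReal.ofReal_ne_top hJ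
  set r : ℝ := (1 / 2 : ℝ) ^ θ with hr
  have hr0 : 0 < r := Real.rpow_pos_of_pos (by norm_num) θ
  have hr1 : r < 1 := Real.rpow_lt_one (by norm_num) (by norm_num) hθ
  set κ : ℝ := (1 - r) / 4 with hκ
  have hκ0 : 0 < κ := by rw [hκ]; linarith
  set e : ℕ → ℝ := fun j => κ * ρ₀ * r ^ j + 2 ^ (a + 3) * be a A B u η (m + j) with he
  have h2a : (0 : ℝ) < 2 ^ (a + 3) := by positivity
  -- the total of the penalties
  have hsum : ∀ n : ℕ, ∑ j ∈ Finset.range n, 2 ^ (a + 3) * be a A B u η (m + j) ≤ ρ₀ / 4 := by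
    intro n
    rw [← Finset.mul_sum]
    have h1 := sum_be_le (n := n) ha hu hη hJ' (by positivity) htail
    have h2 : (2 : ℝ) ^ (a + 3) * (2 / η * 2 ^ (a + 2) * (η * ρ₀ / 2 ^ (2 * a + 8))) = ρ₀ / 4 := by
      have e1 : (2 : ℝ) ^ (2 * a + 8) = 8 * (2 ^ (a + 3) * 2 ^ (a + 2)) := by
        rw [← Real.rpow_add (by norm_num), show (8 : ℝ) = 2 ^ (3 : ℝ) by norm_num,
          ← Real.rpow_add (by norm_num)]
        congr 1; ring
      rw [e1]
      have p1 : (0 : ℝ) < 2 ^ (a + 3) := by positivity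
      have p2 : (0 : ℝ) < 2 ^ (a + 2) := by positivity
      field_simp
      ring
    calc 2 ^ (a + 3) * ∑ j ∈ Finset.range n, be a A B u η (m + j)
        ≤ 2 ^ (a + 3) * (2 / η * 2 ^ (a + 2) * (η * ρ₀ / 2 ^ (2 * a + 8))) := by gcongr
      _ = _ := h2
  have he0 : ∀ j, 0 ≤ e j := fun j => by
    have := be_nonneg (A := A) (B := B) (a := a) (u := u) (η := η) (m + j)
    positivity
  have he1 : ∀ j, e j < 1 := by
    intro j
    have h1 : 2 ^ (a + 3) * be a A B u η (m + j) ≤ ρ₀ / 4 := by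
      refine le_trans ?_ (hsum (j + 1))
      refine Finset.single_le_sum (f := fun j => 2 ^ (a + 3) * be a A B u η (m + j))
        (fun i _ => ?_) (Finset.self_mem_range_succ j)
      have := be_nonneg (A := A) (B := B) (a := a) (u := u) (η := η) (m + i)
      positivity
    have h2 : κ * ρ₀ * r ^ j ≤ 1 / 4 := by
      have h3 : r ^ j ≤ 1 := pow_le_one₀ hr0.le hr1.le
      have h4 : κ ≤ 1 / 4 := by rw [hκ]; linarith
      have h5 : κ * ρ₀ ≤ 1 / 4 := by nlinarith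
      have h6 : 0 ≤ κ * ρ₀ := by positivity
      nlinarith
    show κ * ρ₀ * r ^ j + 2 ^ (a + 3) * be a A B u η (m + j) < 1
    linarith
  -- a base exists
  obtain ⟨t, htI, j, hj1, hj2, hj3⟩ : ∃ t ∈ Icc t₁ ((1 / 2 : ℝ) ^ m), ∃ j : ℕ,
      (1 / 2 : ℝ) ^ (m + j + 1) ≤ t ∧ t ≤ (1 / 2 : ℝ) ^ (m + j) ∧ e j < E (p t) := by
    by_contra hno
    push Not at hno
    obtain ⟨n, hn⟩ : ∃ n : ℕ, (1 / 2 : ℝ) ^ n < t₁ := exists_pow_lt_of_lt_one ht (by norm_num)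
    have hn' : (1 / 2 : ℝ) ^ (m + n) ≤ t₁ := by
      refine le_trans ?_ hn.le
      exact pow_le_pow_of_le_one (by norm_num) (by norm_num) (by omega)
    set g : ℕ → ℝ := fun j => max t₁ ((1 / 2 : ℝ) ^ (m + j)) with hg
    have hgn : g n = t₁ := max_eq_left hn'
    have hg0 : g 0 = (1 / 2 : ℝ) ^ m := by
      show max t₁ ((1 / 2 : ℝ) ^ (m + 0)) = _
      rw [add_zero]; exact max_eq_right ht'
    have hstep : ∀ j, ‖L (g (j + 1)) - L (g j)‖ ≤ e j := by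
      intro j
      have hpow : (1 / 2 : ℝ) ^ (m + j + 1) ≤ (1 / 2 : ℝ) ^ (m + j) :=
        pow_le_pow_of_le_one (by norm_num) (by norm_num) (by omega)
      rcases le_or_gt ((1 / 2 : ℝ) ^ (m + j)) t₁ with hc | hc
      · have h1 : g j = t₁ := max_eq_left hc
        have h2 : g (j + 1) = t₁ := max_eq_left (hpow.trans hc)
        rw [h1, h2, sub_self, norm_zero]
        exact he0 j
      · have h1 : g j = (1 / 2 : ℝ) ^ (m + j) := max_eq_right hc.le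
        have h2 : t₁ ≤ g (j + 1) := le_max_left _ _
        have h2' : (1 / 2 : ℝ) ^ (m + j + 1) ≤ g (j + 1) := le_max_right _ _
        have h3 : g (j + 1) ≤ g j := max_le_max le_rfl hpow
        have h4 : g j ≤ (1 / 2 : ℝ) ^ m := by
          rw [h1]; exact pow_le_pow_of_le_one (by norm_num) (by norm_num) (by omega)
        have hgp : 0 < g (j + 1) := lt_of_lt_of_le ht h2
        set S : Set ℝ := Icc (g (j + 1)) (g j) with hS
        have hSI : S ⊆ Icc t₁ ((1 / 2 : ℝ) ^ m) := Icc_subset_Icc h2 h4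
        have hEx : ∀ x ∈ S, E (p x) ≤ e j := fun x hx =>
          hno x (hSI hx) j (h2'.trans hx.1) (hx.2.trans h1.le)
        have hder : ∀ x ∈ S, ∃ L' : F, HasDerivWithinAt L L' S x ∧ ‖L'‖ ≤ e j / g (j + 1) := by
          intro x hx
          obtain ⟨L', hL1, hL2⟩ := hL x (hSI hx) (lt_of_le_of_lt (hEx x hx) (he1 j))
          refine ⟨L', hL1.mono hSI, ?_⟩
          rw [le_div_iff₀ hgp]
          have hx0 : g (j + 1) ≤ x := hx.1
          have h5 := hEx x hx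
          have h6 : ‖L'‖ * g (j + 1) ≤ x * ‖L'‖ := by
            rw [mul_comm]
            exact mul_le_mul_of_nonneg_right hx0 (norm_nonneg _)
          linarith
        choose! L' hL1 hL2 using hder
        have hmv := Convex.norm_image_sub_le_of_norm_hasDerivWithin_le hL1 hL2
          (convex_Icc _ _) (right_mem_Icc.mpr h3) (left_mem_Icc.mpr h3)
        refine hmv.trans ?_
        have h7 : ‖g (j + 1) - g j‖ ≤ g (j + 1) := by
          rw [Real.norm_eq_abs, abs_sub_comm, abs_of_nonneg (by linarith)]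
          have h8 : (1 / 2 : ℝ) ^ (m + j) = 2 * (1 / 2 : ℝ) ^ (m + j + 1) := by
            rw [pow_succ]; ring
          linarith
        calc e j / g (j + 1) * ‖g (j + 1) - g j‖ ≤ e j / g (j + 1) * g (j + 1) :=
              mul_le_mul_of_nonneg_left h7 (div_nonneg (he0 j) hgp.le)
          _ = e j := by field_simp
    have htot : ‖L (g n) - L (g 0)‖ ≤ ∑ j ∈ Finset.range n, e j := by
      rw [← Finset.sum_range_sub (fun j => L (g j)) n]
      exact (norm_sum_le _ _).trans (Finset.sum_le_sum fun j _ => hstep j)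
    have hgeo : ∑ j ∈ Finset.range n, κ * ρ₀ * r ^ j ≤ ρ₀ / 4 := by
      rw [← Finset.mul_sum]
      have h1 : ∑ j ∈ Finset.range n, r ^ j ≤ (1 - r)⁻¹ := by
        rw [← tsum_geometric_of_lt_one hr0.le hr1]
        exact (summable_geometric_of_lt_one hr0.le hr1).sum_le_tsum _
          (fun i _ => by positivity)
      calc κ * ρ₀ * ∑ j ∈ Finset.range n, r ^ j ≤ κ * ρ₀ * (1 - r)⁻¹ := by gcongr
        _ = ρ₀ / 4 := by
          rw [hκ]
          have : 1 - r ≠ 0 := by linarith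
          field_simp
    have hse : ∑ j ∈ Finset.range n, e j ≤ ρ₀ / 2 := by
      have : ∑ j ∈ Finset.range n, e j = ∑ j ∈ Finset.range n, κ * ρ₀ * r ^ j +
          ∑ j ∈ Finset.range n, 2 ^ (a + 3) * be a A B u η (m + j) := Finset.sum_add_distrib
      rw [this]
      have := hsum n
      linarith
    rw [hgn, hg0] at htot
    linarith
  obtain ⟨hρt, hvt⟩ := hp t htI
  have ht0 : 0 < t := lt_of_lt_of_le ht htI.1
  have hbe := be_nonneg (A := A) (B := B) (a := a) (u := u) (η := η) (m + j)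
  have hEp : 0 < E (p t) := lt_of_le_of_lt (he0 j) hj3
  obtain ⟨z, hz⟩ := w.exists_near a ha hE0 hE1 hEp
  refine ⟨t, htI, z, hz, ?_, ?_⟩
  · have h1 := hz.good (Bad := {z | ENNReal.ofReal η ≤ Marc.Mz A B (v z) (w.ρ z)})
      (β := be a A B u η (m + j)) ha hEp.le hE1 ?_ ?_
    · exact not_le.mp h1
    · intro z' hz'
      exact W_bad w v hv hB ha hu hη hJ (by rw [hρt]; exact hj1) (by rw [hρt]; exact hj2) hvt hz'
    · have h2 : 0 ≤ κ * ρ₀ * r ^ j := by positivity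
      have h3 : e j = κ * ρ₀ * r ^ j + 2 ^ (a + 3) * be a A B u η (m + j) := rfl
      linarith
  · have h1 : t * 2 ^ m ≤ (1 / 2 : ℝ) ^ j := by
      have h2 : (1 / 2 : ℝ) ^ (m + j) * 2 ^ m = (1 / 2 : ℝ) ^ j := by
        rw [pow_add, mul_right_comm, ← mul_pow]
        norm_num
      rw [← h2]
      exact mul_le_mul_of_nonneg_right hj2 (by positivity)
    have h2 : (t * 2 ^ m) ^ θ ≤ r ^ j := by
      calc (t * 2 ^ m) ^ θ ≤ ((1 / 2 : ℝ) ^ j) ^ θ :=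
            Real.rpow_le_rpow (by positivity) h1 hθ.le
        _ = r ^ j := by
          rw [hr, ← Real.rpow_natCast, ← Real.rpow_natCast, ← Real.rpow_mul (by norm_num),
            ← Real.rpow_mul (by norm_num), mul_comm]
    have h3 : e j = κ * ρ₀ * r ^ j + 2 ^ (a + 3) * be a A B u η (m + j) := rfl
    have h4 : κ * ρ₀ * (t * 2 ^ m) ^ θ ≤ κ * ρ₀ * r ^ j := by gcongr
    have h5 : 0 ≤ 2 ^ (a + 3) * be a A B u η (m + j) := by positivity
    linarith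

/-- the same with the tail condition solved for the starting octave. -/
theorem exists_start {A B : Set ℝ} {a u η : ℝ} (ha : 0 < a) (hu : u ∈ A) (hη : 0 < η)
    (hJ : Marc.Jm A B u ≠ ∞) {ρ₀ : ℝ} (h0 : 0 < ρ₀) : ∃ M : ℕ, ∀ m ≥ M,
    ∑' k : ℕ, bi a A B u (k + m) ≤ ENNReal.ofReal (η * ρ₀ / 2 ^ (2 * a + 8)) :=
  tail_small ha hu hJ (by
    rw [Ne, ENNReal.ofReal_eq_zero, not_le]
    positivity)

/-- the distance of the pick, for `a = 1/2`, `θ = 1/8`. -/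
theorem dist_pick {E : Z → ℝ} {p : ℝ → Z} {t ρ₀ : ℝ} {z : Z} {m : ℕ} (hE1 : ∀ z, E z ≤ 1)
    (h0 : 0 < ρ₀) (ht : 0 < t) (hp : w.ρ (p t) = t) (h : w.Near (1 / 2) E (p t) z)
    (hE : (1 - (1 / 2 : ℝ) ^ (1 / 8 : ℝ)) / 4 * ρ₀ * (t * 2 ^ m) ^ (1 / 8 : ℝ) ≤ E (p t)) :
    w.D (p t) z ≤ 2 ^ 19 / ρ₀ ^ 2 * t * (t * 2 ^ m) ^ (-(1 / 4) : ℝ) := by
  have hτ : 0 < t * 2 ^ m := by positivity
  have hb : (1 / 2 : ℝ) ^ (1 / 8 : ℝ) ≤ 15 / 16 := by
    have h1 : (1 / 2 : ℝ) ≤ (15 / 16 : ℝ) ^ (8 : ℝ) := by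
      rw [show (8 : ℝ) = ((8 : ℕ) : ℝ) by norm_num, Real.rpow_natCast]; norm_num
    calc (1 / 2 : ℝ) ^ (1 / 8 : ℝ) ≤ ((15 / 16 : ℝ) ^ (8 : ℝ)) ^ (1 / 8 : ℝ) :=
          Real.rpow_le_rpow (by norm_num) h1 (by norm_num)
      _ = 15 / 16 := by rw [← Real.rpow_mul (by norm_num)]; norm_num
  have hx : 0 < (t * 2 ^ m) ^ (1 / 8 : ℝ) := Real.rpow_pos_of_pos hτ _
  have hE' : ρ₀ / 64 * (t * 2 ^ m) ^ (1 / 8 : ℝ) ≤ E (p t) := by
    refine le_trans (mul_le_mul_of_nonneg_right ?_ hx.le) hE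
    nlinarith
  have hE0 : 0 < E (p t) := lt_of_lt_of_le (by positivity) hE'
  have hd := h.dist (by norm_num) hE0 hE1
  rw [hp] at hd
  refine hd.trans ?_
  have e1 : (1 / (1 / 2 : ℝ)) = 2 := by norm_num
  have e2 : (2 : ℝ) ^ ((1 / 2 : ℝ) + 3) / E (p t) ≤
      2 ^ ((1 / 2 : ℝ) + 3) / (ρ₀ / 64 * (t * 2 ^ m) ^ (1 / 8 : ℝ)) := by gcongr
  have e3 : (2 : ℝ) ^ ((1 / 2 : ℝ) + 3) * 2 ^ ((1 / 2 : ℝ) + 3) = 128 := by
    rw [← Real.rpow_add (by norm_num)]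
    norm_num
  have e4 : (t * 2 ^ m) ^ (1 / 8 : ℝ) * (t * 2 ^ m) ^ (1 / 8 : ℝ) *
      (t * 2 ^ m) ^ (-(1 / 4) : ℝ) = 1 := by
    rw [← Real.rpow_add hτ, ← Real.rpow_add hτ]
    norm_num
  rw [e1, Real.rpow_two]
  have hy : 0 < (t * 2 ^ m) ^ (-(1 / 4) : ℝ) := Real.rpow_pos_of_pos hτ _
  have hP : (0 : ℝ) < 2 ^ ((1 / 2 : ℝ) + 3) := by positivity
  calc t * (2 ^ ((1 / 2 : ℝ) + 3) / E (p t)) ^ 2
      ≤ t * (2 ^ ((1 / 2 : ℝ) + 3) / (ρ₀ / 64 * (t * 2 ^ m) ^ (1 / 8 : ℝ))) ^ 2 := by gcongr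
    _ = 2 ^ 19 / ρ₀ ^ 2 * t * (t * 2 ^ m) ^ (-(1 / 4) : ℝ) := by
      set P : ℝ := (2 : ℝ) ^ ((1 / 2 : ℝ) + 3)
      set X : ℝ := (t * 2 ^ m) ^ (1 / 8 : ℝ)
      set Y : ℝ := (t * 2 ^ m) ^ (-(1 / 4) : ℝ)
      have hP2 : P ^ 2 = 128 := by rw [sq]; exact e3
      have hY : Y = 1 / X ^ 2 := by
        rw [eq_div_iff (by positivity), sq, mul_comm]; exact e4
      rw [hY, div_pow, hP2]
      field_simp
      norm_num

end Vale.Agent.P097.H418
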