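import Vale.Agent.P097.H418.Base

/-!
P097, case [c], row A5.PICK: discrete form of the base (8'), windows only; to be used together with
the first exit lemma of H394.
-/

open MeasureTheory Set Filter Topology
open scoped ENNReal
open Vale.Agent.P097.H315

namespace Vale.Agent.P097.H418

variable {Z : Type*} (w : Pick.Win Z) (v : Z → ℝ)

/-- the total of the penalties, all starting octaves. -/
theorem sum_pen_le {A B : Set ℝ} {a u η : ℝ} (ha : 0 < a) (hu : u ∈ A)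
    (hη : 0 < η) (hJ : Marc.Jm A B u ≠ ∞) {ρ₀ : ℝ} (h0 : 0 < ρ₀) {m : ℕ}
    (htail : ∑' k : ℕ, bi a A B u (k + m) ≤ ENNReal.ofReal (η * ρ₀ / 2 ^ (2 * a + 8))) (n : ℕ) :
    ∑ j ∈ Finset.range n, 2 ^ (a + 3) * be a A B u η (m + j) ≤ ρ₀ / 4 := by
  rw [← Finset.mul_sum]
  have h1 := sum_be_le (n := n) ha hu hη hJ (by positivity) htail
  have h2 : (2 : ℝ) ^ (a + 3) * (2 / η * 2 ^ (a + 2) * (η * ρ₀ / 2 ^ (2 * a + 8))) = ρ₀ / 4 := by
    have e1 : (2 : ℝ) ^ (2 * a + 8) = 8 * (2 ^ (a + 3) * 2 ^ (a + 2)) := by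
      rw [← Real.rpow_add (by norm_num), show (8 : ℝ) = 2 ^ (3 : ℝ) by norm_num,
        ← Real.rpow_add (by norm_num)]
      congr 1; ring
    rw [e1]
    have p1 : (0 : ℝ) < 2 ^ (a + 3) := by positivity
    have p2 : (0 : ℝ) < 2 ^ (a + 2) := by positivity
    field_simp
    ring
  calc 2 ^ (a + 3) * ∑ j ∈ Finset.range n, be a A B u η (m + j)
      ≤ 2 ^ (a + 3) * (2 / η * 2 ^ (a + 2) * (η * ρ₀ / 2 ^ (2 * a + 8))) := by gcongr
    _ = _ := h2

/-- **(8'), discrete**: pieces `i = 0, .., n` of windows over the label `u`, depths about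
`2 ^ (-(m + i))`, total displacement at least `ρ₀`: some window of some piece is a base whose near
maximiser is a good window. -/
theorem pick_of_sum (hv : ∀ z z', |v z - v z'| + w.ρ z + w.ρ z' ≤ w.D z z')
    {A B : Set ℝ} (hB : MeasurableSet B) {a u η θ : ℝ} (ha : 0 < a) (hθ : 0 < θ) (hu : u ∈ A)
    (hη : 0 < η) (hJ : 8 * Marc.Jm A B u ≤ ENNReal.ofReal η)
    {E : Z → ℝ} (hE0 : ∀ z, 0 ≤ E z) (hE1 : ∀ z, E z ≤ 1) {ρ₀ N : ℝ} (h0 : 0 < ρ₀) (hN : ρ₀ ≤ N)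
    {m : ℕ} (htail : ∑' k : ℕ, bi a A B u (k + m) ≤
      ENNReal.ofReal (η * (ρ₀ / N) / 2 ^ (2 * a + 8)))
    {n : ℕ} {P : ℕ → Set Z} {e : ℕ → ℝ}
    (hP : ∀ i ≤ n, ∀ p ∈ P i, v p = u ∧ (1 / 2 : ℝ) ^ (m + i + 1) ≤ w.ρ p ∧
      w.ρ p ≤ (1 / 2 : ℝ) ^ (m + i))
    (he : ∀ i ≤ n, ∀ s : ℝ, 0 ≤ s → s < 1 → (∀ p ∈ P i, E p ≤ s) → e i ≤ N * s)
    (hsum : ρ₀ ≤ ∑ i ∈ Finset.range (n + 1), e i) :
    ∃ i ≤ n, ∃ p ∈ P i, ∃ z : Z, w.Near a E p z ∧
      Marc.Mz A B (v z) (w.ρ z) < ENNReal.ofReal η ∧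
      (1 - (1 / 2 : ℝ) ^ θ) / 4 * (ρ₀ / N) * ((1 / 2 : ℝ) ^ i) ^ θ ≤ E p ∧
      2 ^ (a + 3) * be a A B u η (m + i) ≤ E p := by
  have hJ' : Marc.Jm A B u ≠ ∞ := by
    intro h
    rw [h, ENNReal.mul_top (by norm_num), top_le_iff] at hJ
    exact ENNReal.ofReal_ne_top hJ
  have hN0 : 0 < N := lt_of_lt_of_le h0 hN
  set σ : ℝ := ρ₀ / N with hσ
  have hσ0 : 0 < σ := div_pos h0 hN0
  have hσ1 : σ ≤ 1 := (div_le_one hN0).mpr hN
  set r : ℝ := (1 / 2 : ℝ) ^ θ with hr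
  have hr0 : 0 < r := Real.rpow_pos_of_pos (by norm_num) θ
  have hr1 : r < 1 := Real.rpow_lt_one (by norm_num) (by norm_num) hθ
  set κ : ℝ := (1 - r) / 4 with hκ
  have hκ0 : 0 < κ := by rw [hκ]; linarith
  set g : ℕ → ℝ := fun j => κ * σ * r ^ j + 2 ^ (a + 3) * be a A B u η (m + j) with hg
  have h2a : (0 : ℝ) < 2 ^ (a + 3) := by positivity
  have hpen := sum_pen_le ha hu hη hJ' hσ0 htail
  have hbe : ∀ j, 0 ≤ 2 ^ (a + 3) * be a A B u η (m + j) := fun j => by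
    have := be_nonneg (A := A) (B := B) (a := a) (u := u) (η := η) (m + j)
    positivity
  have hg0 : ∀ j, 0 ≤ g j := fun j => by
    have := hbe j
    have : 0 ≤ κ * σ * r ^ j := by positivity
    show 0 ≤ κ * σ * r ^ j + 2 ^ (a + 3) * be a A B u η (m + j)
    linarith
  have hg1 : ∀ j, g j < 1 := by
    intro j
    have h1 : 2 ^ (a + 3) * be a A B u η (m + j) ≤ σ / 4 := by
      refine le_trans ?_ (hpen (j + 1))
      exact Finset.single_le_sum (f := fun j => 2 ^ (a + 3) * be a A B u η (m + j))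
        (fun i _ => hbe i) (Finset.self_mem_range_succ j)
    have h2 : κ * σ * r ^ j ≤ 1 / 4 := by
      have h3 : r ^ j ≤ 1 := pow_le_one₀ hr0.le hr1.le
      have h4 : κ ≤ 1 / 4 := by rw [hκ]; linarith
      have h5 : κ * σ ≤ 1 / 4 := by nlinarith
      have h6 : 0 ≤ κ * σ := by positivity
      nlinarith
    show κ * σ * r ^ j + 2 ^ (a + 3) * be a A B u η (m + j) < 1
    linarith
  obtain ⟨i, hi, p, hpP, hp⟩ : ∃ i ≤ n, ∃ p ∈ P i, g i < E p := by
    by_contra hno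
    push Not at hno
    have h1 : ∀ i ∈ Finset.range (n + 1), e i ≤ N * g i := fun i hi =>
      he i (Nat.lt_succ_iff.mp (Finset.mem_range.mp hi)) _ (hg0 i) (hg1 i)
        (hno i (Nat.lt_succ_iff.mp (Finset.mem_range.mp hi)))
    have h2 := hsum.trans (Finset.sum_le_sum h1)
    rw [← Finset.mul_sum] at h2
    have hgeo : ∑ j ∈ Finset.range (n + 1), κ * σ * r ^ j ≤ σ / 4 := by
      rw [← Finset.mul_sum]
      have h3 : ∑ j ∈ Finset.range (n + 1), r ^ j ≤ (1 - r)⁻¹ := by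
        rw [← tsum_geometric_of_lt_one hr0.le hr1]
        exact (summable_geometric_of_lt_one hr0.le hr1).sum_le_tsum _
          (fun i _ => by positivity)
      calc κ * σ * ∑ j ∈ Finset.range (n + 1), r ^ j ≤ κ * σ * (1 - r)⁻¹ := by gcongr
        _ = σ / 4 := by
          rw [hκ]
          have : 1 - r ≠ 0 := by linarith
          field_simp
    have hse : ∑ j ∈ Finset.range (n + 1), g j ≤ σ / 2 := by
      have : ∑ j ∈ Finset.range (n + 1), g j = ∑ j ∈ Finset.range (n + 1), κ * σ * r ^ j +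
          ∑ j ∈ Finset.range (n + 1), 2 ^ (a + 3) * be a A B u η (m + j) :=
        Finset.sum_add_distrib
      rw [this]
      have := hpen (n + 1)
      linarith
    have h4 : N * ∑ j ∈ Finset.range (n + 1), g j ≤ N * (σ / 2) :=
      mul_le_mul_of_nonneg_left hse hN0.le
    have h5 : N * (σ / 2) = ρ₀ / 2 := by rw [hσ]; field_simp
    linarith
  obtain ⟨hvp, hp1, hp2⟩ := hP i hi p hpP
  have hEp : 0 < E p := lt_of_le_of_lt (hg0 i) hp
  have hgi : g i = κ * σ * r ^ i + 2 ^ (a + 3) * be a A B u η (m + i) := rfl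
  have hx : 0 < κ * σ * r ^ i := by positivity
  have hbi := hbe i
  obtain ⟨z, hz⟩ := w.exists_near a ha hE0 hE1 hEp
  refine ⟨i, hi, p, hpP, z, hz, ?_, ?_, ?_⟩
  · have h1 := hz.good (Bad := {z | ENNReal.ofReal η ≤ Marc.Mz A B (v z) (w.ρ z)})
      (β := be a A B u η (m + i)) ha hEp.le hE1 ?_ ?_
    · exact not_le.mp h1
    · intro z' hz'
      exact W_bad w v hv hB ha hu hη hJ hp1 hp2 hvp hz'
    · linarith
  · have h2 : ((1 / 2 : ℝ) ^ i) ^ θ = r ^ i := by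
      rw [hr, ← Real.rpow_natCast, ← Real.rpow_natCast, ← Real.rpow_mul (by norm_num),
        ← Real.rpow_mul (by norm_num), mul_comm]
    rw [h2]
    linarith
  · linarith

end Vale.Agent.P097.H418
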