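import Vale.Agent.P097.H881.Sc

/-!
Transfer of bounds between two points of a disc (NORM1 of 82): `G`, `g` holomorphic on a disc,
`|g| ≤ M`, `exp (G z) = 1 → g z = 0`. If `|Re G|` is bounded at one point (possibly a zero of `g`)
and `|g|` is bounded below at another point, then `|Re G|` is bounded at the other point.
-/

open Complex Metric Filter Topology Set

namespace Vale.Agent.P097.H418.NN

open Vale.Agent.P097.H264 Vale.Agent.P097.H881

/-- the second point is the centre -/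
theorem norm_centre (M c R r0 : ℝ) (hc : 0 < c) (hr0 : 0 ≤ r0) (hr : r0 < 1) :
    ∃ C, ∀ G g : ℂ → ℂ, DifferentiableOn ℂ G (ball 0 1) → DifferentiableOn ℂ g (ball 0 1) →
      (∀ z ∈ ball (0 : ℂ) 1, ‖g z‖ ≤ M) → (∀ z ∈ ball (0 : ℂ) 1, exp (G z) = 1 → g z = 0) →
      ∀ w : ℂ, ‖w‖ ≤ r0 → |(G w).re| ≤ R → c ≤ ‖g 0‖ → |(G 0).re| ≤ C := by
  set r1 : ℝ := (1 + r0) / 2 with hr1
  have h10 : 0 ≤ r1 := by rw [hr1]; linarith
  have h11 : r1 < 1 := by rw [hr1]; linarith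
  obtain ⟨N, hN⟩ : ∃ N : ℕ, M * (r1 / 1) ^ (N + 1) < c := by
    have ht : Tendsto (fun n : ℕ => M * (r1 / 1) ^ (n + 1)) atTop (𝓝 (M * 0)) := by
      have h1 := tendsto_pow_atTop_nhds_zero_of_lt_one (by simpa using h10) (by simpa using h11 :
        r1 / 1 < 1)
      exact (h1.comp (tendsto_add_atTop_nat 1)).const_mul M
    rw [mul_zero] at ht
    exact (ht.eventually (gt_mem_nhds hc)).exists
  set a : ℝ := KS ^ (8 * r0 / ((1 - r0) / 2) + 1) with ha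
  refine ⟨a * (N + 1 + R), fun G g hG hg hM hGg w hw hR hc0 => ?_⟩
  have hpos : 0 < (1 - r0) / 2 := by linarith
  -- count
  have hcount : {z ∈ ball (0 : ℂ) r1 | exp (G z) = 1}.encard ≤ N := by
    have h1 := jensen_encard (f := g) (c := 0) h10 h11 hg hM (N := N) (hN.trans_le hc0)
    refine le_trans (Set.encard_le_encard ?_) h1
    intro z hz
    refine ⟨ball_subset_closedBall hz.1, hGg z (ball_subset_ball h11.le hz.1) hz.2⟩
  have hseg := path_seg (U := ball (0 : ℂ) r1) (z := w) (w := 0) hpos (by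
    intro t ht y hy
    rw [mem_ball, dist_eq_norm] at hy
    rw [mem_ball_zero_iff]
    have h1 : ‖w + (t : ℂ) • (0 - w)‖ ≤ r0 := by
      have h2 : w + (t : ℂ) • (0 - w) = ((1 - t : ℝ) : ℂ) * w := by
        rw [smul_eq_mul]; push_cast; ring
      rw [h2, norm_mul, Complex.norm_real, Real.norm_eq_abs, abs_of_nonneg (by linarith [ht.2])]
      have h3 : (1 - t) * ‖w‖ ≤ 1 * ‖w‖ :=
        mul_le_mul_of_nonneg_right (by linarith [ht.1]) (norm_nonneg _)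
      linarith
    have h2 : ‖y‖ ≤ ‖y - (w + (t : ℂ) • (0 - w))‖ + ‖w + (t : ℂ) • (0 - w)‖ := by
      simpa using norm_add_le (y - (w + (t : ℂ) • (0 - w))) (w + (t : ℂ) • (0 - w))
    rw [hr1]
    linarith)
  have hKS := KS_one
  have hseg' : J (ball (0 : ℂ) r1) a w 0 := by
    refine hseg.mono ?_
    rw [ha, zero_sub, norm_neg]
    refine Real.rpow_le_rpow_of_exponent_le hKS ?_
    gcongr
  have h2 := (J_count hseg' (hG.mono (ball_subset_ball h11.le)) hcount).1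
  have ha0 : 0 ≤ a := by rw [ha]; exact Real.rpow_nonneg (by linarith) _
  have h3 : a * (N + 1 + |(G w).re|) ≤ a * (N + 1 + R) := by gcongr
  have h4 : (0 : ℝ) ≤ N := Nat.cast_nonneg N
  linarith

/-- **NORM1**, any two points of a smaller disc -/
theorem norm1_q (M c R q : ℝ) (hc : 0 < c) (hq0 : 0 ≤ q) (hq : q < 1) :
    ∃ C, ∀ G g : ℂ → ℂ, DifferentiableOn ℂ G (ball 0 1) → DifferentiableOn ℂ g (ball 0 1) →
      (∀ z ∈ ball (0 : ℂ) 1, ‖g z‖ ≤ M) → (∀ z ∈ ball (0 : ℂ) 1, exp (G z) = 1 → g z = 0) →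
      ∀ z1 z2 : ℂ, ‖z1‖ ≤ q → ‖z2‖ ≤ q → |(G z1).re| ≤ R → c ≤ ‖g z2‖ → |(G z2).re| ≤ C := by
  set r0 : ℝ := Real.sqrt (1 - (1 - q ^ 2) ^ 2 / 4) with hr0d
  have hq2 : q ^ 2 < 1 := by nlinarith
  have hin : 1 - (1 - q ^ 2) ^ 2 / 4 < 1 := by nlinarith
  have hr0 : 0 ≤ r0 := Real.sqrt_nonneg _
  have hr : r0 < 1 := by
    rw [hr0d, Real.sqrt_lt' one_pos]
    simpa using hin
  obtain ⟨C, hC⟩ := norm_centre M c R r0 hc hr0 hr
  refine ⟨C, fun G g hG hg hM hGg z1 z2 hz1 hz2 hR hc2 => ?_⟩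
  -- the Moebius map
  have hz2' : ‖z2‖ < 1 := hz2.trans_lt hq
  have hz1' : ‖z1‖ < 1 := hz1.trans_lt hq
  have key : ∀ b w : ℂ, normSq (1 + (starRingEnd ℂ) b * w) - normSq (w + b) =
      (1 - normSq b) * (1 - normSq w) := by
    intro b w
    have h1 : ((normSq (1 + (starRingEnd ℂ) b * w) - normSq (w + b) : ℝ) : ℂ) =
        (((1 - normSq b) * (1 - normSq w) : ℝ) : ℂ) := by
      push_cast
      simp only [normSq_eq_conj_mul_self, map_add, map_mul, map_one, conj_conj]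
      ring
    exact_mod_cast h1
  have hne : ∀ b w : ℂ, ‖b‖ < 1 → ‖w‖ < 1 → 1 + (starRingEnd ℂ) b * w ≠ 0 := by
    intro b w hb hw h0
    have h1 : ‖(starRingEnd ℂ) b * w‖ = 1 := by
      have : (starRingEnd ℂ) b * w = -1 := by linear_combination h0
      rw [this, norm_neg, norm_one]
    rw [norm_mul, RCLike.norm_conj] at h1
    nlinarith [norm_nonneg b, norm_nonneg w]
  have hsq : ∀ w : ℂ, ‖w‖ < 1 → normSq w < 1 := by
    intro w hw
    rw [normSq_eq_norm_sq]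
    nlinarith [norm_nonneg w]
  have hmob : ∀ b w : ℂ, ‖b‖ < 1 → ‖w‖ < 1 → ‖(w + b) / (1 + (starRingEnd ℂ) b * w)‖ < 1 := by
    intro b w hb hw
    have h1 := key b w
    have h2 := hne b w hb hw
    have h3 : 0 < (1 - normSq b) * (1 - normSq w) :=
      mul_pos (by linarith [hsq b hb]) (by linarith [hsq w hw])
    rw [norm_div, div_lt_one (norm_pos_iff.mpr h2)]
    rw [normSq_eq_norm_sq, normSq_eq_norm_sq (w + b)] at h1
    exact lt_of_pow_lt_pow_left₀ 2 (norm_nonneg _) (by linarith)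
  set φ : ℂ → ℂ := fun w => (w + z2) / (1 + (starRingEnd ℂ) z2 * w) with hφ
  have hφm : MapsTo φ (ball 0 1) (ball 0 1) := by
    intro w hw
    rw [mem_ball_zero_iff] at hw ⊢
    exact hmob z2 w hz2' hw
  have hφd : DifferentiableOn ℂ φ (ball 0 1) := by
    intro w hw
    rw [mem_ball_zero_iff] at hw
    have h2 := hne z2 w hz2' hw
    refine DifferentiableAt.differentiableWithinAt ?_
    exact DifferentiableAt.div (by fun_prop) (by fun_prop) h2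
  set w1 : ℂ := (z1 - z2) / (1 - (starRingEnd ℂ) z2 * z1) with hw1
  have hne1 : 1 - (starRingEnd ℂ) z2 * z1 ≠ 0 := by
    have := hne (-z2) z1 (by rwa [norm_neg]) hz1'
    simpa [sub_eq_add_neg] using this
  have hne2 : 1 - z1 * (starRingEnd ℂ) z2 ≠ 0 := by rwa [mul_comm z1]
  have hφ1 : φ w1 = z1 := by
    have hd : 1 - normSq z2 ≠ 0 := by linarith [hsq z2 hz2']
    have h5 : 1 + (starRingEnd ℂ) z2 * w1 = (1 - (normSq z2 : ℂ)) / (1 - (starRingEnd ℂ) z2 * z1) := by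
      rw [hw1, normSq_eq_conj_mul_self]
      field_simp
      ring
    have h6 : w1 + z2 = z1 * (1 - (normSq z2 : ℂ)) / (1 - (starRingEnd ℂ) z2 * z1) := by
      rw [hw1, normSq_eq_conj_mul_self]
      field_simp
      ring
    have h7 : (1 - (normSq z2 : ℂ)) ≠ 0 := by exact_mod_cast hd
    show (w1 + z2) / (1 + (starRingEnd ℂ) z2 * w1) = z1
    rw [h5, h6]
    field_simp
  have hφ0 : φ 0 = z2 := by simp [hφ]
  have hw1n : ‖w1‖ ≤ r0 := by
    have h1 := key (-z2) z1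
    have e1 : 1 + (starRingEnd ℂ) (-z2) * z1 = 1 - (starRingEnd ℂ) z2 * z1 := by
      rw [map_neg]; ring
    rw [e1, ← sub_eq_add_neg, normSq_neg] at h1
    have h2 : normSq (1 - (starRingEnd ℂ) z2 * z1) ≤ 4 := by
      rw [normSq_eq_norm_sq]
      have h3 : ‖1 - (starRingEnd ℂ) z2 * z1‖ ≤ 1 + 1 := by
        refine (norm_sub_le _ _).trans ?_
        rw [norm_one, norm_mul, RCLike.norm_conj]
        nlinarith [norm_nonneg z1, norm_nonneg z2]
      nlinarith [norm_nonneg (1 - (starRingEnd ℂ) z2 * z1)]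
    have h0 : 0 < normSq (1 - (starRingEnd ℂ) z2 * z1) := normSq_pos.mpr hne1
    have hz1s : normSq z1 ≤ q ^ 2 := by
      rw [normSq_eq_norm_sq]; gcongr
    have hz2s : normSq z2 ≤ q ^ 2 := by
      rw [normSq_eq_norm_sq]; gcongr
    have h4 : (1 - q ^ 2) ^ 2 ≤ (1 - normSq z2) * (1 - normSq z1) := by
      rw [sq]
      exact mul_le_mul (by linarith) (by linarith) (by linarith) (by linarith)
    rw [hr0d]
    refine Real.le_sqrt_of_sq_le ?_
    rw [hw1, norm_div, div_pow, ← normSq_eq_norm_sq, ← normSq_eq_norm_sq, div_le_iff₀ h0]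
    have h5 : (1 - q ^ 2) ^ 2 / 4 * normSq (1 - (starRingEnd ℂ) z2 * z1) ≤ (1 - q ^ 2) ^ 2 := by
      have : 0 ≤ (1 - q ^ 2) ^ 2 := sq_nonneg _
      nlinarith
    nlinarith
  have hfin := hC (G ∘ φ) (g ∘ φ) (hG.comp hφd hφm) (hg.comp hφd hφm) (fun z hz => hM _ (hφm hz))
    (fun z hz => hGg _ (hφm hz)) w1 hw1n (by simpa [hφ1] using hR) (by simpa [hφ0] using hc2)
  simpa [hφ0] using hfin

/-- **NORM1** (the literal of 82) -/
theorem norm1 (M c R : ℝ) (hc : 0 < c) :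
    ∃ C, ∀ G g : ℂ → ℂ, DifferentiableOn ℂ G (ball 0 1) → DifferentiableOn ℂ g (ball 0 1) →
      (∀ z ∈ ball (0 : ℂ) 1, ‖g z‖ ≤ M) → (∀ z ∈ ball (0 : ℂ) 1, exp (G z) = 1 → g z = 0) →
      ∀ z1 z2 : ℂ, ‖z1‖ ≤ 1 / 2 → ‖z2‖ ≤ 1 / 2 → |(G z1).re| ≤ R → c ≤ ‖g z2‖ →
      |(G z2).re| ≤ C :=
  norm1_q M c R (1 / 2) hc (by norm_num) (by norm_num)

/-- the sum of distances to the foci -/
theorem foci (t s : ℂ) (hs : ‖s‖ < 1) (ht : t = 1 / 2 + (3 / 4 : ℝ) * s) :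
    ‖1 - t‖ + ‖t‖ < 2 := by
  have h1 : ‖1 - t‖ ^ 2 + ‖t‖ ^ 2 = 1 / 2 + 9 / 8 * ‖s‖ ^ 2 := by
    rw [ht]
    simp only [← normSq_eq_norm_sq, normSq_apply]
    simp
    ring
  have h2 : ‖s‖ ^ 2 < 1 := by nlinarith [norm_nonneg s]
  nlinarith [sq_nonneg (‖1 - t‖ - ‖t‖), norm_nonneg (1 - t), norm_nonneg t]

/-- **NORM1 in any complex normed space**, windows of any radius, half windows -/
theorem norm1_E {E : Type*} [NormedAddCommGroup E] [NormedSpace ℂ E] (M c R : ℝ) (hc : 0 < c) :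
    ∃ C, ∀ (x0 : E) (ρ : ℝ) (G g : E → ℂ), 0 < ρ → DifferentiableOn ℂ G (ball x0 ρ) →
      DifferentiableOn ℂ g (ball x0 ρ) → (∀ z ∈ ball x0 ρ, ‖g z‖ ≤ M) →
      (∀ z ∈ ball x0 ρ, exp (G z) = 1 → g z = 0) →
      ∀ z1 z2 : E, ‖z1 - x0‖ ≤ ρ / 2 → ‖z2 - x0‖ ≤ ρ / 2 → |(G z1).re| ≤ R → c ≤ ‖g z2‖ →
      |(G z2).re| ≤ C := by
  obtain ⟨C, hC⟩ := norm1_q M c R (2 / 3) hc (by norm_num) (by norm_num)
  refine ⟨C, fun x0 ρ G g hρ hG hg hM hGg z1 z2 hz1 hz2 hR hc2 => ?_⟩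
  set ψ : ℂ → E := fun s => z1 + (1 / 2 + (3 / 4 : ℝ) * s : ℂ) • (z2 - z1) with hψ
  have hm : MapsTo ψ (ball 0 1) (ball x0 ρ) := by
    intro s hs
    rw [mem_ball_zero_iff] at hs
    rw [mem_ball, dist_eq_norm]
    set t : ℂ := 1 / 2 + (3 / 4 : ℝ) * s with ht
    have h1 : ψ s - x0 = (1 - t) • (z1 - x0) + t • (z2 - x0) := by
      simp only [hψ, ← ht]
      module
    rw [h1]
    refine (norm_add_le _ _).trans_lt ?_
    rw [norm_smul, norm_smul]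
    have h2 := foci t s hs ht
    have h3 : ‖1 - t‖ * ‖z1 - x0‖ ≤ ‖1 - t‖ * (ρ / 2) := by gcongr
    have h4 : ‖t‖ * ‖z2 - x0‖ ≤ ‖t‖ * (ρ / 2) := by gcongr
    nlinarith
  have hd : DifferentiableOn ℂ ψ (ball 0 1) := by
    have : Differentiable ℂ ψ := by
      simp only [hψ]
      fun_prop
    exact this.differentiableOn
  have e1 : ψ (-(2 / 3)) = z1 := by
    have : (1 / 2 + ((3 / 4 : ℝ) : ℂ) * (-(2 / 3)) : ℂ) = 0 := by push_cast; ring
    simp only [hψ, this, zero_smul, add_zero]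
  have e2 : ψ (2 / 3) = z2 := by
    have : (1 / 2 + ((3 / 4 : ℝ) : ℂ) * (2 / 3) : ℂ) = 1 := by push_cast; ring
    simp only [hψ, this, one_smul, add_sub_cancel]
  have n1 : ‖(-(2 / 3) : ℂ)‖ ≤ 2 / 3 := by
    rw [norm_neg]; norm_num
  have n2 : ‖((2 / 3) : ℂ)‖ ≤ 2 / 3 := by norm_num
  have h := hC (G ∘ ψ) (g ∘ ψ) (hG.comp hd hm) (hg.comp hd hm) (fun z hz => hM _ (hm hz))
    (fun z hz => hGg _ (hm hz)) (-(2 / 3)) (2 / 3) n1 n2 (by simpa [e1] using hR)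
    (by simpa [e2] using hc2)
  simpa [e2] using h

end Vale.Agent.P097.H418.NN
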